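/-
helper76 — S0151 squad (Track D, coordinator helper96), leaf A2 (independent hedge):
`fk_zero`, the Fuglede–Kadison identity `τ (log ((1-B)* (1-B))) = 0` along the path `1 - t B`.
Signature verbatim from `Crest.Agent.Helper96.S0151.Blueprint` (not imported).
Route (closure-free): `G(t) = τ(p(Y_t))`, `Y_t = X_t* X_t`, `X_t = 1 - tB`, `p` a polynomial with
`p(1) = 0`, `p' = q ≈ 1/x` on the spectral interval; `G' = τ(q(Y_t) Y_t')` by the trace property on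
`adjoin{B}`; `q(Y) X* B = (q(Y) Y - 1) B R + B R` with `R = ∑ (tB)^n`, `τ(B R) = 0`.
-/
import Mathlib
import Crest.Agent.Helper69.S0151.Neumann

set_option autoImplicit false
set_option linter.unusedSectionVars false

namespace Crest.Agent.Helper76.S0151

open Polynomial

/-- every real polynomial has a polynomial antiderivative -/
theorem exists_antiderivative (q : ℝ[X]) : ∃ p : ℝ[X], derivative p = q := by
  induction q using Polynomial.induction_on' with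
  | add p q hp hq =>
    obtain ⟨a, ha⟩ := hp
    obtain ⟨b, hb⟩ := hq
    exact ⟨a + b, by simp [ha, hb]⟩
  | monomial n a =>
    refine ⟨monomial (n + 1) (a / (n + 1)), ?_⟩
    rw [derivative_monomial]
    have h : (n : ℝ) + 1 ≠ 0 := by positivity
    simp only [Nat.add_sub_cancel, Nat.cast_add, Nat.cast_one]
    congr 1
    field_simp

/-- Weierstrass approximant of `log` with control of the derivative. -/
theorem exists_log_approx (α β η : ℝ) (hα : 0 < α) (hα1 : α ≤ 1) (hβ : 1 ≤ β) (hη : 0 < η) :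
    ∃ p : ℝ[X], p.eval 1 = 0 ∧ (∀ x ∈ Set.Icc α β, |(derivative p).eval x - x⁻¹| ≤ η) ∧
      (∀ x ∈ Set.Icc α β, |p.eval x - Real.log x| ≤ η * β) := by
  obtain ⟨q, hq⟩ := exists_polynomial_near_of_continuousOn α β (fun x => x⁻¹)
    (continuousOn_inv₀.mono (fun x hx => ne_of_gt (lt_of_lt_of_le hα hx.1))) η hη
  obtain ⟨p₀, hp₀⟩ := exists_antiderivative q
  refine ⟨p₀ - C (p₀.eval 1), by simp, ?_, ?_⟩
  · intro x hx
    simpa [hp₀] using (hq x hx).le
  · intro x hx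
    have hderiv : ∀ y ∈ Set.Icc α β,
        HasDerivWithinAt (fun y => (p₀ - C (p₀.eval 1)).eval y - Real.log y)
          (q.eval y - y⁻¹) (Set.Icc α β) y := by
      intro y hy
      have hy0 : y ≠ 0 := ne_of_gt (lt_of_lt_of_le hα hy.1)
      have h1 := (p₀ - C (p₀.eval 1)).hasDerivAt y
      have h2 := Real.hasDerivAt_log hy0
      have h3 := (h1.fun_sub h2).hasDerivWithinAt (s := Set.Icc α β)
      simpa [hp₀] using h3
    have hbound : ∀ y ∈ Set.Icc α β, ‖q.eval y - y⁻¹‖ ≤ η := fun y hy => by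
      rw [Real.norm_eq_abs]; exact (hq y hy).le
    have h1mem : (1 : ℝ) ∈ Set.Icc α β := ⟨hα1, hβ⟩
    have h4 := Convex.norm_image_sub_le_of_norm_hasDerivWithin_le hderiv hbound
      (convex_Icc α β) h1mem hx
    simp only [eval_sub, eval_C, sub_self, Real.log_one, sub_zero, Real.norm_eq_abs] at h4
    simp only [eval_sub, eval_C]
    refine h4.trans (mul_le_mul_of_nonneg_left ?_ hη.le)
    rw [abs_le]
    constructor <;> linarith [hx.1, hx.2]


variable {H : Type*} [NormedAddCommGroup H] [InnerProductSpace ℂ H] [CompleteSpace H]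

/-- the vector state as a real-linear continuous functional -/
noncomputable def tauR (ξ : H) : (H →L[ℂ] H) →L[ℝ] ℂ :=
  ((innerSL ℂ ξ).comp (ContinuousLinearMap.apply ℂ H ξ)).restrictScalars ℝ

theorem tauR_apply (ξ : H) (P : H →L[ℂ] H) : tauR ξ P = inner ℂ ξ (P ξ) := rfl

theorem norm_tauR_le (ξ : H) (P : H →L[ℂ] H) : ‖tauR ξ P‖ ≤ ‖ξ‖ ^ 2 * ‖P‖ := by
  rw [tauR_apply]
  calc ‖inner ℂ ξ (P ξ)‖ ≤ ‖ξ‖ * ‖P ξ‖ := norm_inner_le_norm _ _
    _ ≤ ‖ξ‖ * (‖P‖ * ‖ξ‖) := mul_le_mul_of_nonneg_left (P.le_opNorm ξ) (norm_nonneg _)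
    _ = ‖ξ‖ ^ 2 * ‖P‖ := by ring

theorem tauR_star (ξ : H) (P : H →L[ℂ] H) : tauR ξ (star P) = (starRingEnd ℂ) (tauR ξ P) := by
  rw [tauR_apply, tauR_apply, ContinuousLinearMap.star_eq_adjoint,
    ContinuousLinearMap.adjoint_inner_right, inner_conj_symm]

/-- `X_t = 1 - t B` -/
noncomputable def Xp (B : H →L[ℂ] H) (t : ℝ) : H →L[ℂ] H := 1 - (t : ℂ) • B
/-- `X_t* = 1 - t B*` -/
noncomputable def Xs (B : H →L[ℂ] H) (t : ℝ) : H →L[ℂ] H := 1 - (t : ℂ) • star B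
/-- `Y_t = X_t* X_t` -/
noncomputable def Yp (B : H →L[ℂ] H) (t : ℝ) : H →L[ℂ] H := Xs B t * Xp B t
/-- `Y_t'` -/
noncomputable def Yd (B : H →L[ℂ] H) (t : ℝ) : H →L[ℂ] H := -(star B * Xp B t + Xs B t * B)

theorem star_Xp (B : H →L[ℂ] H) (t : ℝ) : star (Xp B t) = Xs B t := by
  simp [Xp, Xs, star_sub, star_smul]

theorem Yp_eq (B : H →L[ℂ] H) (t : ℝ) : Yp B t = star (Xp B t) * Xp B t := by
  rw [star_Xp, Yp]

theorem isSelfAdjoint_Yp (B : H →L[ℂ] H) (t : ℝ) : IsSelfAdjoint (Yp B t) := by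
  rw [Yp_eq]; exact IsSelfAdjoint.star_mul_self _

theorem Yp_one (B : H →L[ℂ] H) : Yp B 1 = star (1 - B) * (1 - B) := by
  rw [Yp_eq]; simp [Xp]

theorem Yp_zero (B : H →L[ℂ] H) : Yp B 0 = 1 := by
  simp [Yp, Xp, Xs]

theorem hasDerivAt_ofReal' (t : ℝ) : HasDerivAt (fun t : ℝ => (t : ℂ)) 1 t := by
  have h := (hasDerivAt_id t).ofReal_comp
  simpa using h

theorem hasDerivAt_Xp (B : H →L[ℂ] H) (t : ℝ) : HasDerivAt (Xp B) (-B) t := by
  have h2 := (hasDerivAt_ofReal' t).smul_const B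
  have h3 := (hasDerivAt_const t (1 : H →L[ℂ] H)).fun_sub h2
  rw [one_smul, zero_sub] at h3
  exact h3

theorem hasDerivAt_Xs (B : H →L[ℂ] H) (t : ℝ) : HasDerivAt (Xs B) (-star B) t := by
  have h2 := (hasDerivAt_ofReal' t).smul_const (star B)
  have h3 := (hasDerivAt_const t (1 : H →L[ℂ] H)).fun_sub h2
  rw [one_smul, zero_sub] at h3
  exact h3

theorem hasDerivAt_Yp (B : H →L[ℂ] H) (t : ℝ) : HasDerivAt (Yp B) (Yd B t) t := by
  have h := (hasDerivAt_Xs B t).fun_mul (hasDerivAt_Xp B t)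
  have e : -star B * Xp B t + Xs B t * -B = Yd B t := by
    simp [Yd]; abel
  rw [e] at h
  exact h

/-- the derivative of `Y_t ^ n` -/
noncomputable def Dn (B : H →L[ℂ] H) : ℕ → ℝ → (H →L[ℂ] H)
  | 0, _ => 0
  | n + 1, t => Dn B n t * Yp B t + Yp B t ^ n * Yd B t

theorem hasDerivAt_Yp_pow (B : H →L[ℂ] H) (n : ℕ) (t : ℝ) :
    HasDerivAt (fun t => Yp B t ^ n) (Dn B n t) t := by
  induction n with
  | zero => simpa [Dn] using hasDerivAt_const t (1 : H →L[ℂ] H)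
  | succ n ih =>
    have h := ih.fun_mul (hasDerivAt_Yp B t)
    simpa [pow_succ, Dn] using h

section Trace

variable (ξ : H) (B : H →L[ℂ] H)

theorem Xp_mem (t : ℝ) : Xp B t ∈ StarAlgebra.adjoin ℂ {B} :=
  sub_mem (one_mem _) (SMulMemClass.smul_mem _ (StarAlgebra.self_mem_adjoin_singleton ℂ B))

theorem Xs_mem (t : ℝ) : Xs B t ∈ StarAlgebra.adjoin ℂ {B} :=
  sub_mem (one_mem _) (SMulMemClass.smul_mem _
    (star_mem (StarAlgebra.self_mem_adjoin_singleton ℂ B)))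

theorem Yp_mem (t : ℝ) : Yp B t ∈ StarAlgebra.adjoin ℂ {B} :=
  mul_mem (Xs_mem B t) (Xp_mem B t)

theorem Yd_mem (t : ℝ) : Yd B t ∈ StarAlgebra.adjoin ℂ {B} :=
  neg_mem (add_mem (mul_mem (star_mem (StarAlgebra.self_mem_adjoin_singleton ℂ B)) (Xp_mem B t))
    (mul_mem (Xs_mem B t) (StarAlgebra.self_mem_adjoin_singleton ℂ B)))

theorem aeval_mem (A : H →L[ℂ] H) (hA : A ∈ StarAlgebra.adjoin ℂ {B}) (q : ℝ[X]) :
    aeval A q ∈ StarAlgebra.adjoin ℂ {B} := by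
  induction q using Polynomial.induction_on' with
  | add p q hp hq => rw [map_add]; exact add_mem hp hq
  | monomial n a =>
    rw [aeval_monomial, IsScalarTower.algebraMap_apply ℝ ℂ (H →L[ℂ] H)]
    exact mul_mem (algebraMap_mem _ _) (pow_mem hA n)

variable {ξ B}

/-- trace identity for the derivative of `Y_t ^ (n+1)` -/
theorem tauR_Dn (htr : ∀ P ∈ StarAlgebra.adjoin ℂ {B}, ∀ Q ∈ StarAlgebra.adjoin ℂ {B},
      inner ℂ ξ ((P * Q) ξ) = inner ℂ ξ ((Q * P) ξ)) (t : ℝ) (n k : ℕ) :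
    tauR ξ (Dn B (n + 1) t * Yp B t ^ k) = ((n : ℂ) + 1) * tauR ξ (Yp B t ^ (n + k) * Yd B t) := by
  induction n generalizing k with
  | zero =>
    have h := htr (Yd B t) (Yd_mem B t) (Yp B t ^ k) (pow_mem (Yp_mem B t) k)
    simp only [Dn, zero_mul, pow_zero, one_mul, zero_add, Nat.cast_zero]
    rw [tauR_apply, tauR_apply, h]
  | succ n ih =>
    have h := htr (Yp B t ^ (n + 1) * Yd B t) (mul_mem (pow_mem (Yp_mem B t) _) (Yd_mem B t))
      (Yp B t ^ k) (pow_mem (Yp_mem B t) k)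
    have e1 : Dn B (n + 1 + 1) t * Yp B t ^ k
        = Dn B (n + 1) t * Yp B t ^ (k + 1) + Yp B t ^ (n + 1) * Yd B t * Yp B t ^ k := by
      rw [show Dn B (n + 1 + 1) t = Dn B (n + 1) t * Yp B t + Yp B t ^ (n + 1) * Yd B t from rfl,
        add_mul, mul_assoc (Dn B (n + 1) t), ← pow_succ']
    have e2 : Yp B t ^ k * (Yp B t ^ (n + 1) * Yd B t) = Yp B t ^ (n + 1 + k) * Yd B t := by
      rw [← mul_assoc, ← pow_add, add_comm k]
    rw [e1, map_add, ih (k + 1), tauR_apply ξ (Yp B t ^ (n + 1) * Yd B t * Yp B t ^ k), h,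
      ← tauR_apply, e2, show n + (k + 1) = n + 1 + k by omega]
    push_cast
    ring

/-- derivative of `t ↦ τ (p (Y_t))` -/
theorem hasDerivAt_tauR_aeval (htr : ∀ P ∈ StarAlgebra.adjoin ℂ {B}, ∀ Q ∈ StarAlgebra.adjoin ℂ {B},
      inner ℂ ξ ((P * Q) ξ) = inner ℂ ξ ((Q * P) ξ)) (p : ℝ[X]) (t : ℝ) :
    HasDerivAt (fun t => tauR ξ (aeval (Yp B t) p))
      (tauR ξ (aeval (Yp B t) (derivative p) * Yd B t)) t := by
  induction p using Polynomial.induction_on' with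
  | add p q hp hq =>
    have h := hp.fun_add hq
    simpa only [map_add, add_mul] using h
  | monomial n a =>
    have h1 : HasDerivAt (fun t => tauR ξ (Yp B t ^ n)) (tauR ξ (Dn B n t)) t :=
      (tauR ξ).hasFDerivAt.comp_hasDerivAt t (hasDerivAt_Yp_pow B n t)
    have h2 := h1.const_smul a
    have e1 : ∀ s : ℝ, tauR ξ (aeval (Yp B s) (monomial n a)) = a • tauR ξ (Yp B s ^ n) := by
      intro s
      rw [aeval_monomial, ← Algebra.smul_def, map_smul]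
    have e2 : tauR ξ (aeval (Yp B t) (derivative (monomial n a)) * Yd B t)
        = a • tauR ξ (Dn B n t) := by
      rw [derivative_monomial, aeval_monomial, ← Algebra.smul_def, smul_mul_assoc, map_smul]
      cases n with
      | zero => simp [Dn]
      | succ m =>
        have h3 := tauR_Dn htr t m 0
        rw [pow_zero, mul_one, add_zero] at h3
        rw [h3, Nat.add_sub_cancel, Complex.real_smul, Complex.real_smul]
        push_cast
        ring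
    simp only [e1, e2]
    exact h2

end Trace


section Spec

variable (B : H →L[ℂ] H)

theorem norm_smul_pow_le (t : ℝ) (ht : t ∈ Set.Icc (0 : ℝ) 1) (n : ℕ) :
    ‖((t : ℂ) • B) ^ n‖ ≤ ‖B ^ n‖ := by
  rw [_root_.smul_pow, norm_smul, norm_pow, Complex.norm_real, Real.norm_eq_abs, abs_of_nonneg ht.1]
  exact mul_le_of_le_one_left (norm_nonneg _) (pow_le_one₀ ht.1 ht.2)

theorem summable_smul_pow (hB : Summable fun n : ℕ => ‖B ^ n‖) (t : ℝ)
    (ht : t ∈ Set.Icc (0 : ℝ) 1) : Summable fun n : ℕ => ‖((t : ℂ) • B) ^ n‖ :=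
  Summable.of_nonneg_of_le (fun _ => norm_nonneg _) (norm_smul_pow_le B t ht) hB

theorem tsum_smul_pow_le (hB : Summable fun n : ℕ => ‖B ^ n‖) (t : ℝ)
    (ht : t ∈ Set.Icc (0 : ℝ) 1) :
    ∑' n : ℕ, ‖((t : ℂ) • B) ^ n‖ ≤ ∑' n : ℕ, ‖B ^ n‖ :=
  (summable_smul_pow B hB t ht).tsum_le_tsum (norm_smul_pow_le B t ht) hB

theorem spectrum_Yp_subset (hB : Summable fun n : ℕ => ‖B ^ n‖) (t : ℝ)
    (ht : t ∈ Set.Icc (0 : ℝ) 1) :
    spectrum ℝ (Yp B t) ⊆
      Set.Icc ((((∑' n : ℕ, ‖B ^ n‖) + 1)⁻¹) ^ 2) ((1 + ‖B‖) ^ 2) := by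
  set S := ∑' n : ℕ, ‖B ^ n‖ with hS
  have hS0 : 0 ≤ S := tsum_nonneg (fun n => norm_nonneg _)
  have hbelow : ∀ v, (S + 1)⁻¹ * ‖v‖ ≤ ‖Xp B t v‖ := by
    intro v
    have h1 := Crest.Agent.Helper69.S0151.norm_le_tsum_mul_norm_one_sub ((t : ℂ) • B)
      (summable_smul_pow B hB t ht) v
    have h2 := tsum_smul_pow_le B hB t ht
    have h3 : ‖v‖ ≤ (S + 1) * ‖Xp B t v‖ := by
      calc ‖v‖ ≤ (∑' n : ℕ, ‖((t : ℂ) • B) ^ n‖) * ‖(1 - (t : ℂ) • B) v‖ := h1
        _ ≤ (S + 1) * ‖Xp B t v‖ :=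
          mul_le_mul_of_nonneg_right (by linarith) (norm_nonneg _)
    rw [inv_mul_le_iff₀ (by linarith)]
    exact h3
  have h4 := Crest.Agent.Helper69.S0151.spectrum_star_mul_self_subset (Xp B t) ((S + 1)⁻¹)
    (by positivity) hbelow
  rw [Yp_eq]
  refine h4.trans (Set.Icc_subset_Icc le_rfl ?_)
  have h5 : ‖Xp B t‖ ≤ 1 + ‖B‖ := by
    calc ‖Xp B t‖ ≤ ‖(1 : H →L[ℂ] H)‖ + ‖(t : ℂ) • B‖ := norm_sub_le _ _
      _ ≤ 1 + ‖B‖ := by
        refine add_le_add ContinuousLinearMap.norm_id_le ?_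
        rw [norm_smul, Complex.norm_real, Real.norm_eq_abs, abs_of_nonneg ht.1]
        exact mul_le_of_le_one_left (norm_nonneg _) ht.2
  exact pow_le_pow_left₀ (norm_nonneg _) h5 2

end Spec

/-- the bound for the derivative of `t ↦ τ (p (Y_t))`, `q = p'` close to `1/x`. -/
theorem norm_tauR_deriv_le (ξ : H) (B : H →L[ℂ] H) (hB : Summable fun n : ℕ => ‖B ^ n‖)
    (htr : ∀ P ∈ StarAlgebra.adjoin ℂ {B}, ∀ Q ∈ StarAlgebra.adjoin ℂ {B},
      inner ℂ ξ ((P * Q) ξ) = inner ℂ ξ ((Q * P) ξ))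
    (hmom : ∀ n : ℕ, 1 ≤ n → inner ℂ ξ ((B ^ n) ξ) = 0)
    (t : ℝ) (ht : t ∈ Set.Icc (0 : ℝ) 1) (q : ℝ[X]) (η : ℝ) (hη : 0 ≤ η)
    (hq : ∀ x ∈ Set.Icc ((((∑' n : ℕ, ‖B ^ n‖) + 1)⁻¹) ^ 2) ((1 + ‖B‖) ^ 2),
      |q.eval x - x⁻¹| ≤ η) :
    ‖tauR ξ (aeval (Yp B t) q * Yd B t)‖
      ≤ 2 * (‖ξ‖ ^ 2 * ((η * (1 + ‖B‖) ^ 2) * (‖B‖ * ∑' n : ℕ, ‖B ^ n‖))) := by
  set S := ∑' n : ℕ, ‖B ^ n‖ with hS
  have hS0 : 0 ≤ S := tsum_nonneg (fun n => norm_nonneg _)
  have hYsa : IsSelfAdjoint (Yp B t) := isSelfAdjoint_Yp B t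
  have hspec := spectrum_Yp_subset B hB t ht
  have hsum := summable_smul_pow B hB t ht
  set R := ∑' n : ℕ, ((t : ℂ) • B) ^ n with hR
  have hXR : Xp B t * R = 1 :=
    (Crest.Agent.Helper69.S0151.one_sub_mul_tsum ((t : ℂ) • B) hsum).1
  have hRnorm : ‖R‖ ≤ S :=
    (norm_tsum_le_tsum_norm hsum).trans (tsum_smul_pow_le B hB t ht)
  have hE : ‖aeval (Yp B t) q * Yp B t - 1‖ ≤ η * (1 + ‖B‖) ^ 2 := by
    have e : aeval (Yp B t) q * Yp B t - 1
        = cfc (fun x : ℝ => (q * X - 1).eval x) (Yp B t) := by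
      rw [cfc_polynomial (q * X - 1) (Yp B t) hYsa]; simp
    rw [e]
    refine norm_cfc_le (by positivity) ?_
    intro x hx
    have hx' := hspec hx
    have hx0 : 0 < x := lt_of_lt_of_le (by positivity) hx'.1
    simp only [eval_sub, eval_mul, eval_X, eval_one, Real.norm_eq_abs]
    have e2 : q.eval x * x - 1 = (q.eval x - x⁻¹) * x := by field_simp
    rw [e2, abs_mul, abs_of_pos hx0]
    exact mul_le_mul (hq x hx') hx'.2 hx0.le hη
  have hcomm : B * Xp B t = Xp B t * B := by simp [Xp, mul_sub, sub_mul]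
  have hz : aeval (Yp B t) q * (Xs B t * B)
      = (aeval (Yp B t) q * Yp B t - 1) * (B * R) + B * R := by
    have e1 : aeval (Yp B t) q * (Xs B t * B)
        = aeval (Yp B t) q * (Xs B t * (B * Xp B t)) * R := by
      rw [mul_assoc, mul_assoc, mul_assoc, hXR, mul_one]
    rw [e1, hcomm, sub_mul, one_mul, sub_add_cancel, Yp]
    simp only [mul_assoc]
  have hBR : tauR ξ (B * R) = 0 := by
    have hs : HasSum (fun n : ℕ => ((t : ℂ) • B) ^ n) R := hsum.of_norm.hasSum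
    have h1 := hs.mul_left B
    have h2 := h1.mapL (tauR ξ)
    have h3 : ∀ n : ℕ, tauR ξ (B * ((t : ℂ) • B) ^ n) = 0 := by
      intro n
      rw [_root_.smul_pow, mul_smul_comm, ← pow_succ', tauR_apply, _root_.smul_apply,
        inner_smul_right, hmom (n + 1) (by omega), mul_zero]
    simp only [h3] at h2
    exact h2.unique hasSum_zero
  have hznorm : ‖tauR ξ (aeval (Yp B t) q * (Xs B t * B))‖
      ≤ ‖ξ‖ ^ 2 * ((η * (1 + ‖B‖) ^ 2) * (‖B‖ * S)) := by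
    rw [hz, map_add, hBR, add_zero]
    refine (norm_tauR_le ξ _).trans (mul_le_mul_of_nonneg_left ?_ (by positivity))
    refine (norm_mul_le _ _).trans (mul_le_mul hE ?_ (norm_nonneg _) (by positivity))
    exact (norm_mul_le _ _).trans (mul_le_mul_of_nonneg_left hRnorm (norm_nonneg _))
  have hsaq : star (aeval (Yp B t) q) = aeval (Yp B t) q := by
    have h : IsSelfAdjoint (aeval (Yp B t) q) := by
      rw [← cfc_polynomial q (Yp B t) hYsa]; exact cfc_predicate _ _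
    exact h
  have hconj : tauR ξ (aeval (Yp B t) q * (star B * Xp B t))
      = (starRingEnd ℂ) (tauR ξ (aeval (Yp B t) q * (Xs B t * B))) := by
    have e : star (aeval (Yp B t) q * (Xs B t * B)) = star B * Xp B t * aeval (Yp B t) q := by
      rw [star_mul, star_mul, hsaq, ← star_Xp, star_star]
    rw [← tauR_star, e, tauR_apply, tauR_apply]
    exact htr (aeval (Yp B t) q) (aeval_mem B (Yp B t) (Yp_mem B t) q) (star B * Xp B t)
      (mul_mem (star_mem (StarAlgebra.self_mem_adjoin_singleton ℂ B)) (Xp_mem B t))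
  have hfin : aeval (Yp B t) q * Yd B t
      = -(aeval (Yp B t) q * (star B * Xp B t) + aeval (Yp B t) q * (Xs B t * B)) := by
    simp [Yd, mul_add]
  rw [hfin, map_neg, norm_neg, map_add, hconj]
  calc ‖(starRingEnd ℂ) (tauR ξ (aeval (Yp B t) q * (Xs B t * B)))
        + tauR ξ (aeval (Yp B t) q * (Xs B t * B))‖
      ≤ ‖(starRingEnd ℂ) (tauR ξ (aeval (Yp B t) q * (Xs B t * B)))‖
        + ‖tauR ξ (aeval (Yp B t) q * (Xs B t * B))‖ := norm_add_le _ _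
    _ = 2 * ‖tauR ξ (aeval (Yp B t) q * (Xs B t * B))‖ := by rw [RCLike.norm_conj]; ring
    _ ≤ _ := by linarith [hznorm]

/-- Leaf A2 (FK): the Fuglede–Kadison identity along the path `1 - t B`. -/
theorem fk_zero (ξ : H) (B : H →L[ℂ] H) (hB : Summable fun n : ℕ => ‖B ^ n‖)
    (htr : ∀ P ∈ StarAlgebra.adjoin ℂ {B}, ∀ Q ∈ StarAlgebra.adjoin ℂ {B},
      inner ℂ ξ ((P * Q) ξ) = inner ℂ ξ ((Q * P) ξ))
    (hmom : ∀ n : ℕ, 1 ≤ n → inner ℂ ξ ((B ^ n) ξ) = 0) :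
    inner ℂ ξ (cfc Real.log (star (1 - B) * (1 - B)) ξ) = 0 := by
  set S := ∑' n : ℕ, ‖B ^ n‖ with hS
  have hS0 : 0 ≤ S := tsum_nonneg (fun n => norm_nonneg _)
  set α : ℝ := ((S + 1)⁻¹) ^ 2 with hα
  set β : ℝ := (1 + ‖B‖) ^ 2 with hβ
  have hα0 : 0 < α := by positivity
  have hα1 : α ≤ 1 := by
    have h : (S + 1)⁻¹ ≤ 1 := inv_le_one_of_one_le₀ (by linarith)
    exact pow_le_one₀ (by positivity) h
  have hβ1 : 1 ≤ β := one_le_pow₀ (by linarith [norm_nonneg B])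
  set K : ℝ := ‖ξ‖ ^ 2 * β + 2 * (‖ξ‖ ^ 2 * (β * (‖B‖ * S))) with hK
  have hK0 : 0 ≤ K := by positivity
  have key : ∀ η : ℝ, 0 < η → ‖tauR ξ (cfc Real.log (Yp B 1))‖ ≤ η * K := by
    intro η hη
    obtain ⟨p, hp1, hpd, hpl⟩ := exists_log_approx α β η hα0 hα1 hβ1 hη
    have hG : ∀ t ∈ Set.Icc (0 : ℝ) 1,
        HasDerivWithinAt (fun t => tauR ξ (aeval (Yp B t) p))
          (tauR ξ (aeval (Yp B t) (derivative p) * Yd B t)) (Set.Icc 0 1) t :=
      fun t _ => (hasDerivAt_tauR_aeval htr p t).hasDerivWithinAt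
    have hbd : ∀ t ∈ Set.Icc (0 : ℝ) 1,
        ‖tauR ξ (aeval (Yp B t) (derivative p) * Yd B t)‖
          ≤ 2 * (‖ξ‖ ^ 2 * ((η * β) * (‖B‖ * S))) :=
      fun t ht => norm_tauR_deriv_le ξ B hB htr hmom t ht (derivative p) η hη.le hpd
    have h01 := Convex.norm_image_sub_le_of_norm_hasDerivWithin_le hG hbd (convex_Icc 0 1)
      (Set.left_mem_Icc.2 zero_le_one) (Set.right_mem_Icc.2 zero_le_one)
    have hG0 : tauR ξ (aeval (Yp B 0) p) = 0 := by
      rw [Yp_zero, ← map_one (algebraMap ℝ (H →L[ℂ] H)),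
        aeval_algebraMap_apply_eq_algebraMap_eval, hp1, map_zero, map_zero]
    rw [hG0, sub_zero, sub_zero, norm_one, mul_one] at h01
    have hYsa := isSelfAdjoint_Yp B 1
    have hspec := spectrum_Yp_subset B hB 1 ⟨zero_le_one, le_rfl⟩
    have hlogc : ContinuousOn Real.log (spectrum ℝ (Yp B 1)) :=
      Real.continuousOn_log.mono (fun x hx => ne_of_gt (lt_of_lt_of_le hα0 (hspec hx).1))
    have hdiff : cfc Real.log (Yp B 1) - aeval (Yp B 1) p
        = cfc (fun x => Real.log x - p.eval x) (Yp B 1) := by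
      rw [cfc_sub Real.log (fun x => p.eval x) (Yp B 1) hlogc p.continuous.continuousOn,
        cfc_polynomial p (Yp B 1) hYsa]
    have hnd : ‖cfc Real.log (Yp B 1) - aeval (Yp B 1) p‖ ≤ η * β := by
      rw [hdiff]
      refine norm_cfc_le (by positivity) ?_
      intro x hx
      rw [Real.norm_eq_abs, abs_sub_comm]
      exact hpl x (hspec hx)
    calc ‖tauR ξ (cfc Real.log (Yp B 1))‖
        = ‖tauR ξ (cfc Real.log (Yp B 1) - aeval (Yp B 1) p)
            + tauR ξ (aeval (Yp B 1) p)‖ := by rw [← map_add, sub_add_cancel]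
      _ ≤ ‖tauR ξ (cfc Real.log (Yp B 1) - aeval (Yp B 1) p)‖
            + ‖tauR ξ (aeval (Yp B 1) p)‖ := norm_add_le _ _
      _ ≤ ‖ξ‖ ^ 2 * (η * β) + 2 * (‖ξ‖ ^ 2 * ((η * β) * (‖B‖ * S))) :=
          add_le_add ((norm_tauR_le ξ _).trans
            (mul_le_mul_of_nonneg_left hnd (by positivity))) h01
      _ = η * K := by rw [hK]; ring
  have hzero : ‖tauR ξ (cfc Real.log (Yp B 1))‖ ≤ 0 := by
    by_contra hcon
    have hcon' := not_le.1 hcon
    have h1 := key (‖tauR ξ (cfc Real.log (Yp B 1))‖ / (2 * (K + 1))) (by positivity)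
    have h2 : ‖tauR ξ (cfc Real.log (Yp B 1))‖ / (2 * (K + 1)) * K
        ≤ ‖tauR ξ (cfc Real.log (Yp B 1))‖ / 2 := by
      rw [div_mul_eq_mul_div, div_le_div_iff₀ (by positivity) (by positivity)]
      nlinarith
    linarith
  rw [← Yp_one, ← tauR_apply]
  exact norm_le_zero_iff.1 hzero

end Crest.Agent.Helper76.S0151
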