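/-
helper76 — S0151 squad (Track D, coordinator helper96), leaf C9a:
`tau_aeval_Meps` (polynomials of `T*T + ε` are covariant multipliers of degree 0; their vacuum
expectation is an integral) and `norm_T_le_one`.  Signatures verbatim from
`Crest.Agent.Helper96.S0151.Blueprint` (not imported: this file depends only on sorry-free
leaves C1 (helper89), C3 (helper23), C4 (helper22), C5 (helper95), C7 (helper24), C6 (helper5)).
-/
import Crest.Agent.Helper96.S0151.Defs
import Crest.Agent.Helper89.S0151.Rot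
import Crest.Agent.Helper23.S0151.CovAlg
import Crest.Agent.Helper22.S0151.Adj
import Crest.Agent.Helper95.S0151.Tau
import Crest.Agent.Helper24.S0151.TShift
import Crest.Agent.Helper5.S0151.Weight

set_option autoImplicit false

open MeasureTheory Crest.AnalysisR.ProductShift
open scoped ENNReal ComplexConjugate

namespace Crest.Agent.Helper76.S0151

open Crest.Agent.Helper96.S0151
open Crest.Agent.Helper89.S0151 (orbitPoint_orbitPoint measurable_orbitPoint
  measurePreserving_orbitPoint)
open Crest.Agent.Helper23.S0151 (isCov_one IsCov.mul IsCov.add IsCov.smul IsCov.congr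
  IsCov.norm_le)
open Crest.Agent.Helper22.S0151 (IsCov.adjoint)
open Crest.Agent.Helper95.S0151 (IsCov.tau_eq)
open Crest.Agent.Helper24.S0151 (isCov_T bm_wmul)
open Crest.Agent.Helper5.S0151 (measurable_weight weight_nonneg weight_le_one)

/-- C9a: `‖T‖ ≤ 1`. -/
theorem norm_T_le_one (θ c : ℕ → ℝ) (T : pairSpace →L[ℂ] pairSpace)
    (hT : IsWeightedShift θ c T) : ‖T‖ ≤ 1 := by
  refine IsCov.norm_le (isCov_T θ c T hT) 1 ?_
  intro y
  rw [wmul, Complex.norm_real, Real.norm_eq_abs, abs_of_nonneg (weight_nonneg θ c _)]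
  exact weight_le_one θ c _

/-- the multiplier of `T*T + ε`, evaluated along `σ^0`. -/
theorem isCov_Meps (θ c : ℕ → ℝ) (T : pairSpace →L[ℂ] pairSpace)
    (hT : IsWeightedShift θ c T) (ε : ℝ) :
    IsCov θ (fun y => (((weight θ c (orbitPoint θ 0 y)) ^ 2 + ε : ℝ) : ℂ)) 0
      (star T * T + ((ε : ℝ) : ℂ) • (1 : pairSpace →L[ℂ] pairSpace)) := by
  have h1 := isCov_T θ c T hT
  have h2 : IsCov θ (fun y => conj (wmul θ c (orbitPoint θ 1 y))) (-1) (star T) :=
    IsCov.adjoint h1 (bm_wmul θ c)
  have h3 := IsCov.mul h2 h1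
  have h4 := IsCov.smul ((ε : ℝ) : ℂ) (isCov_one θ)
  have e : (-1 : ℤ) + 1 = 0 := by norm_num
  rw [e] at h3
  have h5 := IsCov.add h3 h4
  refine IsCov.congr h5 ?_
  intro y
  simp only [neg_neg, wmul, orbitPoint_orbitPoint, mul_one]
  have e2 : (-1 : ℤ) + (1 + 0) = 0 := by norm_num
  rw [e2, Complex.conj_ofReal]
  push_cast
  ring

/-- polynomials of `T*T + ε` are covariant multipliers of degree `0`. -/
theorem isCov_aeval_Meps (θ c : ℕ → ℝ) (T : pairSpace →L[ℂ] pairSpace)
    (hT : IsWeightedShift θ c T) (ε : ℝ) (p : Polynomial ℝ) :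
    IsCov θ (fun y => ((p.eval ((weight θ c (orbitPoint θ 0 y)) ^ 2 + ε) : ℝ) : ℂ)) 0
      (Polynomial.aeval (star T * T + ((ε : ℝ) : ℂ) • (1 : pairSpace →L[ℂ] pairSpace)) p) := by
  have hM := isCov_Meps θ c T hT ε
  induction p using Polynomial.induction_on with
  | C a =>
    have h := IsCov.smul ((a : ℝ) : ℂ) (isCov_one θ)
    have e : Polynomial.aeval (star T * T + ((ε : ℝ) : ℂ) • (1 : pairSpace →L[ℂ] pairSpace))
        (Polynomial.C a) = ((a : ℝ) : ℂ) • (1 : pairSpace →L[ℂ] pairSpace) := by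
      rw [Polynomial.aeval_C,
        IsScalarTower.algebraMap_apply ℝ ℂ (pairSpace →L[ℂ] pairSpace),
        Algebra.algebraMap_eq_smul_one]
      rfl
    rw [e]
    refine IsCov.congr h ?_
    intro y
    simp
  | add p q hp hq =>
    have h := IsCov.add hp hq
    rw [map_add]
    refine IsCov.congr h ?_
    intro y
    simp
  | monomial n a ih =>
    have h := IsCov.mul ih hM
    have e : Polynomial.aeval (star T * T + ((ε : ℝ) : ℂ) • (1 : pairSpace →L[ℂ] pairSpace))
        (Polynomial.C a * Polynomial.X ^ (n + 1)) =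
        Polynomial.aeval (star T * T + ((ε : ℝ) : ℂ) • (1 : pairSpace →L[ℂ] pairSpace))
          (Polynomial.C a * Polynomial.X ^ n) *
          (star T * T + ((ε : ℝ) : ℂ) • (1 : pairSpace →L[ℂ] pairSpace)) := by
      rw [pow_succ, ← mul_assoc, map_mul, Polynomial.aeval_X]
    rw [e]
    rw [add_zero] at h
    refine IsCov.congr h ?_
    intro y
    simp only [neg_zero, orbitPoint_orbitPoint, add_zero, Polynomial.eval_mul, Polynomial.eval_C,
      Polynomial.eval_pow, Polynomial.eval_X]
    push_cast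
    ring

/-- C9a: polynomials of `T*T + ε` are multipliers; their vacuum expectation is an integral. -/
theorem tau_aeval_Meps (θ c : ℕ → ℝ) (T : pairSpace →L[ℂ] pairSpace)
    (hT : IsWeightedShift θ c T) (ε : ℝ) (hε : 0 < ε) (p : Polynomial ℝ) :
    tau (Polynomial.aeval (star T * T + ((ε : ℝ) : ℂ) • (1 : pairSpace →L[ℂ] pairSpace)) p)
      = ((∫ y, p.eval ((weight θ c y) ^ 2 + ε) ∂cubeMeasure : ℝ) : ℂ) := by
  have hcov := isCov_aeval_Meps θ c T hT ε p
  have hmeas : Measurable (fun y : ℕ → ℝ => p.eval ((weight θ c y) ^ 2 + ε)) :=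
    p.continuous.measurable.comp (((measurable_weight θ c).pow_const 2).add_const ε)
  have hBM : BM (fun y => ((p.eval ((weight θ c (orbitPoint θ 0 y)) ^ 2 + ε) : ℝ) : ℂ)) := by
    refine ⟨Complex.measurable_ofReal.comp (hmeas.comp (measurable_orbitPoint θ 0)), ?_⟩
    obtain ⟨C, hC⟩ := (isCompact_Icc (a := (0 : ℝ)) (b := 1 + ε)).exists_bound_of_continuousOn
      p.continuous.continuousOn
    refine ⟨C, fun y => ?_⟩
    rw [Complex.norm_real]
    apply hC
    have h0 := weight_nonneg θ c (orbitPoint θ 0 y)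
    have h1 := weight_le_one θ c (orbitPoint θ 0 y)
    constructor
    · positivity
    · nlinarith
  rw [IsCov.tau_eq hcov hBM, if_pos rfl, integral_complex_ofReal]
  congr 1
  have hmp := measurePreserving_orbitPoint θ 0
  have h := MeasureTheory.integral_map (μ := cubeMeasure) (measurable_orbitPoint θ 0).aemeasurable
    (f := fun y : ℕ → ℝ => p.eval ((weight θ c y) ^ 2 + ε)) hmeas.aestronglyMeasurable
  rw [hmp.map_eq] at h
  exact h.symm

end Crest.Agent.Helper76.S0151
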